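import Vale.Agent.Lib.P064T.Uniform

/-!
The spread lemma with the set size `e(H)` in place of the size of the ground set: an embedding
bound `Θ` gives `p_c ≤ 192 log (e(H) + 3) Θ`. With the uniform embedding bound this gives
`p_c ≤ C max (p_E, 1 / n) (log n)^(1/2 + ε) log (e(H) + 3)`.
-/

open Finset

namespace Vale.Agent.Lib.P064L

open Vale.Agent.Lib.P064 Vale.Agent.Lib.P064E Vale.Agent.Lib.P064U Vale.Agent.Lib.P064T
open scoped Classical

variable {n : ℕ} {V : Type} [Fintype V] {H : SimpleGraph V}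

/-- A copy of `H` has at most `e(H)` edges. -/
lemma card_famS_le (ι : V ↪ Fin n) (g : Equiv.Perm (Fin n)) :
    (famS H ι g).card ≤ H.edgeSet.ncard := by
  have h1 : H.edgeSet.ncard = H.edgeFinset.card := by
    rw [← Set.ncard_coe_finset, SimpleGraph.coe_edgeFinset]
  rw [h1]
  have h2 : (famS H ι g).card ≤
      (H.edgeFinset.image (Sym2.map (fun a => g (ι a)))).card := by
    refine Finset.card_le_card_of_injOn (fun x => x.1) ?_ ?_
    · intro x hx
      have hx' := (Finset.mem_filter.1 (Finset.mem_coe.1 hx)).2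
      obtain ⟨a, b, hab, hxe⟩ := hx'
      refine Finset.mem_coe.2 (Finset.mem_image.2 ⟨s(a, b), ?_, ?_⟩)
      · exact SimpleGraph.mem_edgeFinset.2 hab
      · simp [hxe]
    · intro x _ y _ hxy
      exact Subtype.ext hxy
  exact h2.trans Finset.card_image_le

/-- The spread lemma applied to the family of copies of `H`, with set size `e(H)`. -/
theorem probContains_large_edges {Θ p₀ : ℝ} [Nonempty V] (ι : V ↪ Fin n) (hΘ0 : 0 < Θ)
    (hΘ : EmbBound n H Θ) (hp : 64 * Θ ≤ p₀) (hp1 : p₀ ≤ 1) {L : ℕ}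
    (hL : H.edgeSet.ncard < 2 ^ L) :
    1 / 2 ≤ probContains n (roundP p₀ L) H := by
  have hp0 : 0 < p₀ := by linarith
  obtain ⟨h0', h1'⟩ := roundP_mem hp0.le hp1 L
  have hfac : (0 : ℝ) < n.factorial := by positivity
  have hcard : Fintype.card (Equiv.Perm (Fin n)) = n.factorial := by
    rw [Fintype.card_perm, Fintype.card_fin]
  have hspread := spread_final (X := EdgeSp n) hΘ0.le hp hp0 hp1 hL (famS H ι)
    (univ : Finset (Equiv.Perm (Fin n))) (fun _ => 1 / (n.factorial : ℝ))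
    (fun _ _ => by positivity) (fun g _ => card_famS_le ι g) (by
      intro U
      rw [Finset.sum_const, nsmul_eq_mul, mul_one_div, div_le_iff₀ hfac]
      have := spread_count_gen hΘ ι U
      convert this using 3) (by
      rw [Finset.sum_const, nsmul_eq_mul, Finset.card_univ, hcard]
      field_simp)
  have := probContains_ge (H := H) h0' h1' ι
  linarith

omit [Fintype V] in
lemma one_le_log_edges (H : SimpleGraph V) : 1 ≤ Real.log ((H.edgeSet.ncard : ℝ) + 3) := by
  have h0 : (0 : ℝ) ≤ (H.edgeSet.ncard : ℝ) := Nat.cast_nonneg _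
  rw [Real.le_log_iff_exp_le (by linarith)]
  have := Real.exp_one_lt_d9
  linarith

/-- The threshold from an embedding bound, with `log (e(H) + 3)`. -/
theorem pc_le_of_embBound_edges {Θ : ℝ} (hn : 2 ≤ n) (hV : Fintype.card V ≤ n) (hH : H ≠ ⊥)
    (hΘ0 : 0 < Θ) (hΘ : EmbBound n H Θ) :
    pc n H ≤ 192 * Real.log ((H.edgeSet.ncard : ℝ) + 3) * Θ := by
  obtain ⟨ι⟩ : Nonempty (V ↪ Fin n) :=
    Function.Embedding.nonempty_of_card_le (by simpa using hV)
  obtain ⟨a, b, hab⟩ : ∃ a b, H.Adj a b := by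
    by_contra hcon
    push Not at hcon
    apply hH
    ext x y
    simp [hcon x y]
  have : Nonempty V := ⟨a⟩
  set E := H.edgeSet.ncard with hE
  set l := Real.log ((E : ℝ) + 3) with hl
  have hl1 : 1 ≤ l := one_le_log_edges H
  have hpc1 : pc n H ≤ 1 := pc_le_of_mem (by norm_num) le_rfl (one_mem_pc_set ι)
  by_cases hcase2 : 1 < 64 * Θ
  · refine hpc1.trans ?_
    have : 64 * Θ ≤ 192 * l * Θ := by
      have : (64 : ℝ) ≤ 192 * l := by linarith
      exact mul_le_mul_of_nonneg_right this hΘ0.le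
    linarith
  push Not at hcase2
  set k := Nat.log 2 E with hk
  have hLcard : E < 2 ^ (k + 1) := Nat.lt_pow_succ_log_self (by norm_num) E
  have hLreal : ((k + 1 : ℕ) : ℝ) ≤ 3 * l := by
    have h3 : ((2 : ℝ) ^ k) ≤ (E : ℝ) + 3 := by
      by_cases hE0 : E = 0
      · simp [hk, hE0]
      · have h4 : 2 ^ k ≤ E := Nat.pow_log_le_self 2 hE0
        have h5 : ((2 : ℝ) ^ k) ≤ (E : ℝ) := by exact_mod_cast h4
        linarith
    have h5 := Real.log_le_log (by positivity) h3
    rw [Real.log_pow] at h5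
    have hlog2 : (1 : ℝ) / 2 ≤ Real.log 2 := by
      have := Real.log_two_gt_d9
      linarith
    have h6 : (k : ℝ) ≤ 2 * l := by
      have hk0 : (0 : ℝ) ≤ k := Nat.cast_nonneg _
      nlinarith
    push_cast
    linarith
  have hmain := probContains_large_edges ι hΘ0 hΘ (le_refl (64 * Θ)) hcase2 hLcard
  have hp₀0 : 0 ≤ 64 * Θ := by positivity
  obtain ⟨h3, h4⟩ := roundP_mem hp₀0 hcase2 (k + 1)
  refine (pc_le_of_mem h3 h4 hmain).trans ?_
  refine (roundP_le hp₀0 hcase2 (k + 1)).trans ?_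
  calc ((k + 1 : ℕ) : ℝ) * (64 * Θ) ≤ (3 * l) * (64 * Θ) :=
        mul_le_mul_of_nonneg_right hLreal hp₀0
    _ = _ := by ring

/-- The uniform threshold bound with `log (e(H) + 3)` in place of `log n`. -/
theorem pc_uniform_edges (ε : ℝ) (hε : 0 < ε) :
    ∃ C : ℝ, 0 < C ∧ ∀ n : ℕ, 3 ≤ n → ∀ (V : Type) [Fintype V] (H : SimpleGraph V),
      Fintype.card V ≤ n → H ≠ ⊥ →
      pc n H ≤ C * max (pE n H) (1 / (n : ℝ)) * (Real.log n) ^ (1 / 2 + ε) *
        Real.log ((H.edgeSet.ncard : ℝ) + 3) := by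
  obtain ⟨C₁, hC₁, hU⟩ := emb_uniform ε hε
  have h2pow : (1 : ℝ) ≤ (2 : ℝ) ^ ((1 : ℝ) / 2 + ε) :=
    Real.one_le_rpow (by norm_num) (by positivity)
  refine ⟨4 * Real.exp 1 + 192 * (4 * C₁ * (2 : ℝ) ^ ((1 : ℝ) / 2 + ε)), by positivity, ?_⟩
  intro n hn V _ H hV hH
  obtain ⟨ι⟩ : Nonempty (V ↪ Fin n) :=
    Function.Embedding.nonempty_of_card_le (by simpa using hV)
  have hn2 : 2 ≤ n := by omega
  have hnR : (3 : ℝ) ≤ n := by exact_mod_cast hn
  have hn0 : (0 : ℝ) < n := by linarith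
  set x := Real.log n with hx
  have hx1 : 1 ≤ x := by
    rw [hx, Real.le_log_iff_exp_le hn0]
    have := Real.exp_one_lt_d9
    linarith
  have hx0 : 0 < x := by linarith
  have hE0 := pE_pos hn2 hV hH
  have hlt : pE n H < 2 * pE n H := by linarith
  obtain ⟨p, ⟨h0, h1, hp⟩, hp2⟩ := exists_lt_of_csInf_lt (pE_set_nonempty (H := H) ι) hlt
  have hpE : pE n H ≤ p := csInf_le ⟨0, fun _ hy => hy.1⟩ ⟨h0, h1, hp⟩
  have hp0 : 0 < p := by linarith
  have hG₀ : GoodDensity n (2 * p) H := good_of_subgraphs h0 h1 hp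
  set P := max (pE n H) (1 / (n : ℝ)) with hP
  have hP0 : 0 < P := lt_max_of_lt_left hE0
  have hPE : pE n H ≤ P := le_max_left _ _
  have hPn : 1 / (n : ℝ) ≤ P := le_max_right _ _
  set q := max (2 * p) (1 / (n : ℝ)) with hq
  have hq0 : 0 < q := lt_max_of_lt_right (by positivity)
  have hq4 : q ≤ 4 * P := by
    apply max_le
    · linarith
    · linarith
  have hqn : 1 / (n : ℝ) ≤ q := le_max_right _ _
  have hG : GoodDensity n q H := good_mono (by positivity) (le_max_left _ _) hG₀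
  have hpow1 : (1 : ℝ) ≤ x ^ ((1 : ℝ) / 2 + ε) := Real.one_le_rpow hx1 (by positivity)
  set Y := x ^ ((1 : ℝ) / 2 + ε) with hY
  have hY0 : 0 < Y := by linarith
  set A := 4 * C₁ * (2 : ℝ) ^ ((1 : ℝ) / 2 + ε) with hA
  have hA0 : 0 ≤ A := by positivity
  have hPY : 0 ≤ P * Y := by positivity
  set l := Real.log ((H.edgeSet.ncard : ℝ) + 3) with hl
  have hl1 : 1 ≤ l := one_le_log_edges H
  by_cases hqe : Real.exp (-1) < q
  · -- large `q`: trivial
    have h1P : 1 ≤ 4 * Real.exp 1 * P := by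
      have h2 : Real.exp (-1) * Real.exp 1 = 1 := by
        rw [← Real.exp_add]
        simp
      have h3 : 0 < Real.exp 1 := Real.exp_pos _
      calc (1 : ℝ) = Real.exp (-1) * Real.exp 1 := h2.symm
        _ ≤ q * Real.exp 1 := mul_le_mul_of_nonneg_right hqe.le h3.le
        _ ≤ (4 * P) * Real.exp 1 := mul_le_mul_of_nonneg_right hq4 h3.le
        _ = _ := by ring
    have hb : 4 * Real.exp 1 * P ≤ (4 * Real.exp 1 + 192 * A) * P := by
      nlinarith
    have hCP : 0 ≤ (4 * Real.exp 1 + 192 * A) * P := by positivity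
    have hCPY : 0 ≤ (4 * Real.exp 1 + 192 * A) * P * Y := by positivity
    calc pc n H ≤ 1 := pc_le_one hV
      _ ≤ (4 * Real.exp 1 + 192 * A) * P := h1P.trans hb
      _ ≤ (4 * Real.exp 1 + 192 * A) * P * Y := le_mul_of_one_le_right hCP hpow1
      _ ≤ (4 * Real.exp 1 + 192 * A) * P * Y * l := le_mul_of_one_le_right hCPY hl1
  · push Not at hqe
    have hlamq : 1 ≤ - Real.log q := by
      have := Real.log_le_log hq0 hqe
      rw [Real.log_exp] at this
      linarith
    have hlamx : - Real.log q ≤ x := by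
      have h2 : Real.log (1 / (n : ℝ)) ≤ Real.log q := Real.log_le_log (by positivity) hqn
      rw [one_div, Real.log_inv] at h2
      linarith
    have hs : Std n q x (- Real.log q) :=
      { n1 := by omega
        l_eq := rfl
        lam_eq := rfl
        q0 := hq0
        l1 := hx1
        lam1 := hlamq
        lam_le := hlamx }
    have hD : 1 ≤ (n : ℝ) * q := by
      have := mul_le_mul_of_nonneg_left hqn hn0.le
      rwa [mul_one_div_cancel hn0.ne'] at this
    obtain ⟨Θ, hΘ0, hΘ, hΘle⟩ := hU n q x (- Real.log q) V H hs hD hG hV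
    have h1x : (1 + x) ^ ((1 : ℝ) / 2 + ε) ≤ (2 : ℝ) ^ ((1 : ℝ) / 2 + ε) * Y := by
      rw [hY, ← Real.mul_rpow (by norm_num) hx0.le]
      exact Real.rpow_le_rpow (by linarith) (by linarith) (by positivity)
    have hΘY : Θ ≤ A * (P * Y) := by
      have hpos : 0 ≤ (1 + x) ^ ((1 : ℝ) / 2 + ε) := by positivity
      calc Θ ≤ C₁ * q * (1 + x) ^ ((1 : ℝ) / 2 + ε) := hΘle
        _ ≤ C₁ * (4 * P) * ((2 : ℝ) ^ ((1 : ℝ) / 2 + ε) * Y) := by
            apply mul_le_mul _ h1x hpos (by positivity)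
            exact mul_le_mul_of_nonneg_left hq4 hC₁.le
        _ = _ := by rw [hA]; ring
    have he : 0 ≤ 4 * Real.exp 1 * (P * Y) := by positivity
    have hl0 : 0 ≤ l := by linarith
    calc pc n H ≤ 192 * l * Θ := pc_le_of_embBound_edges hn2 hV hH hΘ0 hΘ
      _ ≤ 192 * l * (A * (P * Y)) := mul_le_mul_of_nonneg_left hΘY (by positivity)
      _ ≤ (4 * Real.exp 1 + 192 * A) * P * Y * l := by
          have : 0 ≤ 4 * Real.exp 1 * (P * Y) * l := by positivity
          nlinarith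

/-- Q1 for graphs with few edges: if `p_E ≥ 1 / (3 n)` and `log (e(H) + 3) ≤ (log n)^(1/2 - ε)`,
then `p_c ≤ C p_E log n`. -/
theorem q1_few_edges (ε : ℝ) (hε : 0 < ε) :
    ∃ C : ℝ, 0 < C ∧ ∀ n : ℕ, 3 ≤ n → ∀ (V : Type) [Fintype V] (H : SimpleGraph V),
      Fintype.card V ≤ n → H ≠ ⊥ → 1 / (3 * (n : ℝ)) ≤ pE n H →
      Real.log ((H.edgeSet.ncard : ℝ) + 3) ≤ (Real.log n) ^ (1 / 2 - ε) →
      pc n H ≤ C * pE n H * Real.log n := by
  obtain ⟨C, hC, h⟩ := pc_uniform_edges ε hε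
  refine ⟨3 * C, by positivity, ?_⟩
  intro n hn V _ H hV hH hp hl
  have hnR : (3 : ℝ) ≤ n := by exact_mod_cast hn
  have hn0 : (0 : ℝ) < n := by linarith
  have hx1 : 1 ≤ Real.log n := by
    rw [Real.le_log_iff_exp_le hn0]
    have := Real.exp_one_lt_d9
    linarith
  have hx0 : 0 < Real.log n := by linarith
  have hn2 : 2 ≤ n := by omega
  have hE0 := pE_pos hn2 hV hH
  have hmax : max (pE n H) (1 / (n : ℝ)) ≤ 3 * pE n H := by
    apply max_le
    · linarith
    · have h3 : 1 / (n : ℝ) = 3 * (1 / (3 * (n : ℝ))) := by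
        field_simp
      rw [h3]
      linarith
  have hpow : (Real.log n) ^ ((1 : ℝ) / 2 + ε) * (Real.log n) ^ ((1 : ℝ) / 2 - ε) = Real.log n := by
    rw [← Real.rpow_add hx0]
    convert Real.rpow_one (Real.log n) using 2
    ring
  have hY : 0 ≤ (Real.log n) ^ ((1 : ℝ) / 2 + ε) := by positivity
  calc pc n H ≤ C * max (pE n H) (1 / (n : ℝ)) * (Real.log n) ^ ((1 : ℝ) / 2 + ε) *
        Real.log ((H.edgeSet.ncard : ℝ) + 3) := h n hn V H hV hH
    _ ≤ C * (3 * pE n H) * (Real.log n) ^ ((1 : ℝ) / 2 + ε) *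
        (Real.log n) ^ ((1 : ℝ) / 2 - ε) := by
        apply mul_le_mul _ hl (by linarith [one_le_log_edges H]) (by positivity)
        apply mul_le_mul_of_nonneg_right _ hY
        exact mul_le_mul_of_nonneg_left hmax hC.le
    _ = 3 * C * pE n H * ((Real.log n) ^ ((1 : ℝ) / 2 + ε) * (Real.log n) ^ ((1 : ℝ) / 2 - ε)) := by
        ring
    _ = _ := by rw [hpow]

end Vale.Agent.Lib.P064L
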