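import Vale.Agent.Lib.P064L.LogEdges
import Vale.Agent.Lib.P064U.WWalk
import Vale.Agent.Lib.P064U.WCopies
import Vale.Agent.Lib.P064U.WComp
import Vale.Agent.Lib.P064S.Tree

/-!
Bounded degree hosts. If every vertex of `H` has at most `Δ` neighbours, then a maximal family of
disjoint copies of a connected `G` is an anchor: every embedding hits it, and from a hit vertex the
embedding is determined by a walk with at most `Δ` choices per step. So the loss per edge is `C Δ`.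
-/

open Finset

namespace Vale.Agent.Lib.P064L

open Vale.Agent.Lib.P064 Vale.Agent.Lib.P064E Vale.Agent.Lib.P064U
open scoped Classical

variable {n : ℕ} {V : Type} [Fintype V] {H : SimpleGraph V} {q : ℝ}

lemma ncard_eq_eIn {β : Type} [Fintype β] (G : SimpleGraph β) :
    G.edgeSet.ncard = (eIn G univ).card := by
  have h : ((eIn G univ : Finset (Sym2 β)) : Set (Sym2 β)) = G.edgeSet := by
    ext e
    simp [eIn]
  rw [← h, Set.ncard_coe_finset]

/-- The count for a connected graph: a maximal disjoint family is an anchor. -/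
theorem conn_bound_deg (hG : GoodDensity n q H) (hq0 : 0 < q) (hq1 : q ≤ 1) {Δ : ℕ}
    (hΔ : ∀ x, (nb H x).card ≤ Δ) {β : Type} [Fintype β] [Nonempty β] (G : SimpleGraph β)
    (hiso : ∀ x, ∃ y, G.Adj x y)
    (hconn : ∀ D : Finset β, D.Nonempty → D ≠ univ → ∃ u ∈ D, ∃ w, w ∉ D ∧ G.Adj u w) :
    ((emb G H).card : ℝ) ≤ Real.exp 1 * (Fintype.card β : ℝ) ^ 2 *
      (Δ : ℝ) ^ (Fintype.card β - 1) * ((n : ℝ) ^ Fintype.card β * q ^ (eIn G univ).card) := by
  set v := Fintype.card β with hv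
  set R : ℝ := (n : ℝ) ^ v * q ^ (eIn G univ).card with hR
  have hR0 : 0 ≤ R := by positivity
  rcases (emb G H).eq_empty_or_nonempty with hemp | hne
  · rw [hemp]
    simp only [Finset.card_empty, Nat.cast_zero]
    positivity
  have hCne : (univ : Finset β).Nonempty := univ_nonempty
  obtain ⟨𝓜, hsub, hne𝓜, hdisj, hcov⟩ := exists_max_family (emb G H) hne hCne
  -- the number of disjoint copies
  have hh : (𝓜.card : ℝ) ≤ Real.exp 1 * R := by
    have : Nonempty ↥𝓜 := by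
      obtain ⟨φ, hφ⟩ := hne𝓜
      exact ⟨⟨φ, hφ⟩⟩
    have hW : G.edgeSet.Nonempty := by
      obtain ⟨x⟩ := (inferInstance : Nonempty β)
      obtain ⟨y, hy⟩ := hiso x
      exact ⟨s(x, y), hy⟩
    have hf := copies_factorial (κ := β) (I := ↥𝓜) hG hq0 hq1 G hW id
      (fun a b a' b' h1 h2 h => by
        have h1' : a = a' := h1
        have h2' : b = b' := h2
        rw [← h1', ← h2']
        exact h)
      (fun i => i.1)
      (fun i => (mem_emb.1 (hsub i.2)).1)
      (fun i a b hab => (mem_emb.1 (hsub i.2)).2 a b hab)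
      (fun i j hij a b => hdisj i.1 i.2 j.1 j.2
        (fun h => hij (Subtype.ext h)) a (mem_univ _) b (mem_univ _))
    have hprod : (∏ k : β, (((univ.filter fun a => id a = k).card).factorial : ℝ)) = 1 := by
      refine Finset.prod_eq_one fun k _ => ?_
      have : (univ.filter fun a => id a = k) = {k} := by
        ext a
        simp
      rw [this]
      simp
    rw [hprod, ncard_eq_eIn, Fintype.card_coe] at hf
    have h1 : 1 ≤ 𝓜.card := hne𝓜.card_pos
    have := card_mul_le_of_factorial (g := 1) (R := R) h1 (by norm_num) hR0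
      (by simpa using hf)
    simpa using this
  -- every embedding hits the family
  have hwalk : ∀ (x : β) (a : V), (((emb G H).filter fun φ => φ x = a).card : ℝ) ≤
      (Δ : ℝ) ^ (v - 1) := by
    intro x a
    obtain ⟨par, r, hparz, hparv⟩ := exists_par_rank (F := G) (I := univ) (x := x) (mem_univ x)
      (fun D hD _ hDu => by
        obtain ⟨u, hu, w, hw, huw⟩ := hconn D hD hDu
        exact ⟨u, hu, w, Finset.mem_sdiff.2 ⟨mem_univ _, hw⟩, huw⟩)
    have h := walk_count G (emb G H) (fun φ hφ => hφ) x a par r hparz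
      (fun w hw => by
        obtain ⟨_, h2, h3⟩ := hparv w (mem_univ w) hw
        exact ⟨h2, h3⟩)
      (fun _ => (Δ : ℝ)) (fun _ => Nat.cast_nonneg _)
      (fun φ _ y => by exact_mod_cast hΔ (φ y))
    refine h.trans_eq ?_
    rw [Finset.prod_const, Finset.card_erase_of_mem (mem_univ x), Finset.card_univ]
  have hcover : emb G H ⊆ (univ : Finset β).biUnion fun x => 𝓜.biUnion fun φ' =>
      (univ : Finset β).biUnion fun y => (emb G H).filter fun φ => φ x = φ' y := by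
    intro φ hφ
    obtain ⟨x, hx, φ', hφ', y, hy, hxy⟩ := hcov φ hφ
    refine Finset.mem_biUnion.2 ⟨x, hx, Finset.mem_biUnion.2 ⟨φ', hφ', Finset.mem_biUnion.2 ⟨y, hy, ?_⟩⟩⟩
    exact Finset.mem_filter.2 ⟨hφ, hxy⟩
  have hcount : ((emb G H).card : ℝ) ≤ (v : ℝ) * ((𝓜.card : ℝ) * ((v : ℝ) * (Δ : ℝ) ^ (v - 1))) := by
    have h1 : ((emb G H).card : ℝ) ≤ ∑ x : β, ∑ φ' ∈ 𝓜, ∑ y : β,
        (((emb G H).filter fun φ => φ x = φ' y).card : ℝ) := by
      have h2 := Finset.card_le_card hcover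
      have h3 : (((univ : Finset β).biUnion fun x => 𝓜.biUnion fun φ' =>
          (univ : Finset β).biUnion fun y => (emb G H).filter fun φ => φ x = φ' y).card : ℝ) ≤
          ∑ x : β, ∑ φ' ∈ 𝓜, ∑ y : β,
            (((emb G H).filter fun φ => φ x = φ' y).card : ℝ) := by
        refine (Nat.cast_le.2 Finset.card_biUnion_le).trans ?_
        push_cast
        refine Finset.sum_le_sum fun x _ => ?_
        refine (Nat.cast_le.2 Finset.card_biUnion_le).trans ?_
        push_cast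
        refine Finset.sum_le_sum fun φ' _ => ?_
        exact_mod_cast Finset.card_biUnion_le
      exact (Nat.cast_le.2 h2).trans h3
    refine h1.trans ?_
    have h4 : ∀ x : β, ∀ φ' ∈ 𝓜, ∑ y : β,
        (((emb G H).filter fun φ => φ x = φ' y).card : ℝ) ≤ (v : ℝ) * (Δ : ℝ) ^ (v - 1) := by
      intro x φ' _
      calc ∑ y : β, (((emb G H).filter fun φ => φ x = φ' y).card : ℝ)
          ≤ ∑ _y : β, (Δ : ℝ) ^ (v - 1) := Finset.sum_le_sum fun y _ => hwalk x (φ' y)
        _ = _ := by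
            rw [Finset.sum_const, Finset.card_univ, nsmul_eq_mul]
    calc ∑ x : β, ∑ φ' ∈ 𝓜, ∑ y : β, (((emb G H).filter fun φ => φ x = φ' y).card : ℝ)
        ≤ ∑ _x : β, ∑ _φ' ∈ 𝓜, (v : ℝ) * (Δ : ℝ) ^ (v - 1) :=
          Finset.sum_le_sum fun x _ => Finset.sum_le_sum fun φ' hφ' => h4 x φ' hφ'
      _ = _ := by
          rw [Finset.sum_const, Finset.card_univ, nsmul_eq_mul, Finset.sum_const, nsmul_eq_mul]
  have hpos : 0 ≤ (v : ℝ) * ((v : ℝ) * (Δ : ℝ) ^ (v - 1)) := by positivity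
  calc ((emb G H).card : ℝ) ≤ (v : ℝ) * ((𝓜.card : ℝ) * ((v : ℝ) * (Δ : ℝ) ^ (v - 1))) := hcount
    _ = (𝓜.card : ℝ) * ((v : ℝ) * ((v : ℝ) * (Δ : ℝ) ^ (v - 1))) := by ring
    _ ≤ (Real.exp 1 * R) * ((v : ℝ) * ((v : ℝ) * (Δ : ℝ) ^ (v - 1))) :=
        mul_le_mul_of_nonneg_right hh hpos
    _ = _ := by ring

/-- A connected graph has at least `v - 1` edges. -/
lemma v_le_e_add_one' {β : Type} [Fintype β] [Nonempty β] (G : SimpleGraph β)
    (hconn : ∀ D : Finset β, D.Nonempty → D ≠ univ → ∃ u ∈ D, ∃ w, w ∉ D ∧ G.Adj u w) :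
    Fintype.card β - 1 ≤ (eIn G univ).card := by
  obtain ⟨z⟩ := (inferInstance : Nonempty β)
  obtain ⟨par, r, hparz, hparv⟩ := exists_par_rank (F := G) (I := univ) (x := z) (mem_univ z)
    (fun D hD _ hDu => by
      obtain ⟨u, hu, w, hw, huw⟩ := hconn D hD hDu
      exact ⟨u, hu, w, Finset.mem_sdiff.2 ⟨mem_univ _, hw⟩, huw⟩)
  have h1 : (univ.erase z).card ≤ (eIn G univ).card := by
    refine Finset.card_le_card_of_injOn (fun w => s(par w, w)) ?_ ?_
    · intro w hw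
      have hw' : w ≠ z := (Finset.mem_erase.1 hw).1
      exact mem_eIn_pair.2 ⟨(hparv w (mem_univ w) hw').2.2, mem_univ _, mem_univ _⟩
    · intro a ha b hb hab
      have ha' : a ≠ z := (Finset.mem_erase.1 ha).1
      have hb' : b ≠ z := (Finset.mem_erase.1 hb).1
      have hra := (hparv a (mem_univ a) ha').2.1
      have hrb := (hparv b (mem_univ b) hb').2.1
      rcases Sym2.eq_iff.1 hab with ⟨_, h2⟩ | ⟨h1, h2⟩
      · exact h2
      · rw [h1] at hra
        rw [← h2] at hrb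
        omega
  rw [Finset.card_erase_of_mem (mem_univ z), Finset.card_univ] at h1
  exact h1

/-- The embedding bound for hosts of maximum degree at most `Δ`. -/
theorem embBound_deg (hG : GoodDensity n q H) (hq0 : 0 < q) (hq1 : q ≤ 1) {Δ : ℕ} (hΔ1 : 1 ≤ Δ)
    (hΔ : ∀ x, (nb H x).card ≤ Δ) :
    EmbBound n H (Real.exp 6 * (Δ : ℝ) * q) := by
  intro β _ G hiso hvn
  have hΔR : (1 : ℝ) ≤ (Δ : ℝ) := by exact_mod_cast hΔ1
  have hBd : 0 ≤ Real.exp 4 * (Δ : ℝ) * q := by positivity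
  have hmain : ((emb G H).card : ℝ) ≤
      (Real.exp 4 * (Δ : ℝ) * q) ^ (eIn G univ).card * (n : ℝ) ^ Fintype.card β := by
    refine emb_components (H := H) (n := n) hBd ?_ β G hiso
    intro γ _ G' hne hiso' hconn
    have := hne
    have h := conn_bound_deg (H := H) hG hq0 hq1 hΔ G' hiso' hconn
    refine h.trans ?_
    set e := (eIn G' univ).card with he
    set v := Fintype.card γ with hv
    have hve : v ≤ 2 * e := (vertices_le_darts hiso').trans darts_card_le
    have hve' : (v : ℝ) ≤ 2 * (e : ℝ) := by exact_mod_cast hve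
    have hv1 : 1 ≤ v := Fintype.card_pos
    have he1 : (1 : ℝ) ≤ (e : ℝ) := by
      have : 1 ≤ e := by omega
      exact_mod_cast this
    have hv0 : (0 : ℝ) ≤ (v : ℝ) := Nat.cast_nonneg _
    -- `v² ≤ 2 exp v`
    have hsq : (v : ℝ) ^ 2 ≤ 2 * Real.exp (v : ℝ) := by
      have := Real.quadratic_le_exp_of_nonneg hv0
      nlinarith
    have hc : Real.exp 1 * (v : ℝ) ^ 2 ≤ Real.exp (4 * (e : ℝ)) := by
      have h2 : (2 : ℝ) ≤ Real.exp 1 := by
        have := Real.add_one_le_exp (1 : ℝ)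
        linarith
      calc Real.exp 1 * (v : ℝ) ^ 2 ≤ Real.exp 1 * (Real.exp 1 * Real.exp (v : ℝ)) := by
            apply mul_le_mul_of_nonneg_left _ (Real.exp_pos _).le
            exact hsq.trans (mul_le_mul_of_nonneg_right h2 (Real.exp_pos _).le)
        _ = Real.exp (2 + (v : ℝ)) := by
            rw [← Real.exp_add, ← Real.exp_add]
            congr 1
            ring
        _ ≤ Real.exp (4 * (e : ℝ)) := Real.exp_le_exp.2 (by linarith)
    have hΔpow : (Δ : ℝ) ^ (v - 1) ≤ (Δ : ℝ) ^ e :=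
      pow_le_pow_right₀ hΔR (v_le_e_add_one' G' hconn)
    have hX : 0 ≤ (n : ℝ) ^ v * q ^ e := by positivity
    calc Real.exp 1 * (v : ℝ) ^ 2 * (Δ : ℝ) ^ (v - 1) * ((n : ℝ) ^ v * q ^ e)
        ≤ Real.exp (4 * (e : ℝ)) * (Δ : ℝ) ^ e * ((n : ℝ) ^ v * q ^ e) := by
          apply mul_le_mul_of_nonneg_right _ hX
          exact mul_le_mul hc hΔpow (by positivity) (Real.exp_pos _).le
      _ = (Real.exp 4 * (Δ : ℝ) * q) ^ e * (n : ℝ) ^ v := by
          have h5 : Real.exp (4 * (e : ℝ)) = Real.exp 4 ^ e := by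
            rw [← Real.exp_nat_mul]
            congr 1
            ring
          rw [h5, mul_pow, mul_pow]
          ring
  refine hmain.trans ?_
  set e := (eIn G univ).card with he
  set v := Fintype.card β with hv
  have hve : v ≤ 2 * e := (vertices_le_darts hiso).trans darts_card_le
  have hnd := pow_le_exp_descFactorial hvn
  set d : ℝ := (n.descFactorial v : ℝ) with hd
  have hd0 : 0 ≤ d := Nat.cast_nonneg _
  have hE1 : 1 ≤ Real.exp 1 := Real.one_le_exp (by norm_num)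
  have hpow : Real.exp 1 ^ v ≤ Real.exp 2 ^ e := by
    have h1 : Real.exp 2 ^ e = Real.exp 1 ^ (2 * e) := by
      have h0 : Real.exp 2 = Real.exp 1 ^ 2 := by
        rw [← Real.exp_nat_mul]
        norm_num
      rw [h0, ← pow_mul]
    rw [h1]
    exact pow_le_pow_right₀ hE1 hve
  have hb0 : 0 ≤ (Real.exp 4 * (Δ : ℝ) * q) ^ e := by positivity
  calc (Real.exp 4 * (Δ : ℝ) * q) ^ e * (n : ℝ) ^ v
      ≤ (Real.exp 4 * (Δ : ℝ) * q) ^ e * (Real.exp 1 ^ v * d) :=
        mul_le_mul_of_nonneg_left hnd hb0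
    _ ≤ (Real.exp 4 * (Δ : ℝ) * q) ^ e * (Real.exp 2 ^ e * d) := by
        gcongr
    _ = (Real.exp 6 * (Δ : ℝ) * q) ^ e * d := by
        have h16 : Real.exp 6 = Real.exp 4 * Real.exp 2 := by
          rw [← Real.exp_add]
          norm_num
        rw [h16, mul_pow, mul_pow, mul_pow]
        ring

/-- The thresholds for hosts of maximum degree at most `Δ`. -/
theorem thresholds_deg :
    ∃ C : ℝ, 0 < C ∧ ∀ n : ℕ, 2 ≤ n → ∀ (V : Type) [Fintype V] (H : SimpleGraph V) (Δ : ℕ),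
      Fintype.card V ≤ n → H ≠ ⊥ → 1 ≤ Δ → (∀ x, (H.neighborSet x).ncard ≤ Δ) →
      pTilde n H ≤ C * (Δ : ℝ) * pE n H ∧
      pc n H ≤ C * (Δ : ℝ) * pE n H * Real.log ((H.edgeSet.ncard : ℝ) + 3) := by
  refine ⟨4 + 192 * (2 * 2 * Real.exp 6), by positivity, ?_⟩
  intro n hn V _ H Δ hV hH hΔ1 hΔ
  obtain ⟨ι⟩ : Nonempty (V ↪ Fin n) :=
    Function.Embedding.nonempty_of_card_le (by simpa using hV)
  have hΔR : (1 : ℝ) ≤ (Δ : ℝ) := by exact_mod_cast hΔ1
  have hΔ' : ∀ x, (nb H x).card ≤ Δ := by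
    intro x
    have h1 : ((nb H x : Finset V) : Set V) = H.neighborSet x := by
      ext u
      simp [mem_nb]
    rw [← Set.ncard_coe_finset, h1]
    exact hΔ x
  have hE0 := pE_pos hn hV hH
  have hlt : pE n H < 2 * pE n H := by linarith
  obtain ⟨p, ⟨h0, h1, hp⟩, hp2⟩ := exists_lt_of_csInf_lt (pE_set_nonempty (H := H) ι) hlt
  have hpE : pE n H ≤ p := csInf_le ⟨0, fun _ hy => hy.1⟩ ⟨h0, h1, hp⟩
  have hp0 : 0 < p := by linarith
  have hG : GoodDensity n (2 * p) H := good_of_subgraphs h0 h1 hp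
  have hl1 : 1 ≤ Real.log ((H.edgeSet.ncard : ℝ) + 3) := one_le_log_edges H
  set l := Real.log ((H.edgeSet.ncard : ℝ) + 3) with hl
  set C : ℝ := 4 + 192 * (2 * 2 * Real.exp 6) with hC
  have hC0 : 0 < C := by positivity
  have hexp : 0 < Real.exp 6 := Real.exp_pos _
  by_cases hq : 1 < 2 * p
  · -- trivial range
    have h1E : 1 ≤ 4 * pE n H := by linarith
    have hb : 1 ≤ C * (Δ : ℝ) * pE n H := by
      have h2 : 4 * pE n H ≤ C * (Δ : ℝ) * pE n H := by
        apply mul_le_mul_of_nonneg_right _ hE0.le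
        nlinarith [mul_pos hexp (by norm_num : (0 : ℝ) < 768)]
      linarith
    refine ⟨(pTilde_le_one hV).trans hb, ?_⟩
    calc pc n H ≤ 1 := pc_le_one hV
      _ ≤ C * (Δ : ℝ) * pE n H := hb
      _ ≤ C * (Δ : ℝ) * pE n H * l := le_mul_of_one_le_right (by positivity) hl1
  · push Not at hq
    have hq0 : 0 < 2 * p := by linarith
    have hEB := embBound_deg hG hq0 hq hΔ1 hΔ'
    have hΘ0 : 0 < Real.exp 6 * (Δ : ℝ) * (2 * p) := by positivity
    have hΘle : Real.exp 6 * (Δ : ℝ) * (2 * p) ≤ (2 * 2 * Real.exp 6) * ((Δ : ℝ) * pE n H) := by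
      have h3 : 0 ≤ Real.exp 6 * (Δ : ℝ) := by positivity
      nlinarith
    have hΔE : 0 ≤ (Δ : ℝ) * pE n H := by positivity
    constructor
    · calc pTilde n H ≤ Real.exp 6 * (Δ : ℝ) * (2 * p) := pTilde_le_of_embBound hV hΘ0 hEB
        _ ≤ (2 * 2 * Real.exp 6) * ((Δ : ℝ) * pE n H) := hΘle
        _ ≤ C * ((Δ : ℝ) * pE n H) := by
            apply mul_le_mul_of_nonneg_right _ hΔE
            rw [hC]
            nlinarith
        _ = _ := by ring
    · calc pc n H ≤ 192 * l * (Real.exp 6 * (Δ : ℝ) * (2 * p)) :=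
            pc_le_of_embBound_edges hn hV hH hΘ0 hEB
        _ ≤ 192 * l * ((2 * 2 * Real.exp 6) * ((Δ : ℝ) * pE n H)) :=
            mul_le_mul_of_nonneg_left hΘle (by positivity)
        _ = (192 * (2 * 2 * Real.exp 6)) * (Δ : ℝ) * pE n H * l := by ring
        _ ≤ C * (Δ : ℝ) * pE n H * l := by
            have h4 : 192 * (2 * 2 * Real.exp 6) ≤ C := by rw [hC]; linarith
            have h5 : 0 ≤ (Δ : ℝ) * pE n H * l := by positivity
            nlinarith

/-- `log (e(H) + 3) ≤ 4 log n`. -/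
lemma log_edges_le {n : ℕ} (hn : 2 ≤ n) {V : Type} [Fintype V] (H : SimpleGraph V)
    (hV : Fintype.card V ≤ n) :
    Real.log ((H.edgeSet.ncard : ℝ) + 3) ≤ 4 * Real.log n := by
  have h1 : H.edgeSet.ncard = H.edgeFinset.card := by
    rw [← Set.ncard_coe_finset, SimpleGraph.coe_edgeFinset]
  have h2 : H.edgeFinset.card ≤ (Fintype.card V).choose 2 := SimpleGraph.card_edgeFinset_le_card_choose_two
  have h3 : (Fintype.card V).choose 2 ≤ n ^ 2 := by
    rw [Nat.choose_two_right]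
    calc Fintype.card V * (Fintype.card V - 1) / 2 ≤ Fintype.card V * (Fintype.card V - 1) :=
          Nat.div_le_self _ _
      _ ≤ Fintype.card V * Fintype.card V := Nat.mul_le_mul_left _ (Nat.sub_le _ _)
      _ ≤ n * n := Nat.mul_le_mul hV hV
      _ = n ^ 2 := (sq n).symm
  have h4 : ((H.edgeSet.ncard : ℕ) : ℝ) ≤ (n : ℝ) ^ 2 := by
    rw [h1]
    exact_mod_cast h2.trans h3
  have hnR : (2 : ℝ) ≤ n := by exact_mod_cast hn
  have h5 : (H.edgeSet.ncard : ℝ) + 3 ≤ (n : ℝ) ^ 4 := by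
    have h6 : (4 : ℝ) ≤ (n : ℝ) ^ 2 := by nlinarith
    have h7 : (n : ℝ) ^ 4 = (n : ℝ) ^ 2 * (n : ℝ) ^ 2 := by ring
    nlinarith
  have h8 : (0 : ℝ) ≤ (H.edgeSet.ncard : ℝ) := Nat.cast_nonneg _
  calc Real.log ((H.edgeSet.ncard : ℝ) + 3) ≤ Real.log ((n : ℝ) ^ 4) :=
        Real.log_le_log (by linarith) h5
    _ = 4 * Real.log n := by
        rw [Real.log_pow]
        norm_num

/-- Q1 for hosts of bounded degree, with `log n`. -/
theorem q1_deg :
    ∃ C : ℝ, 0 < C ∧ ∀ n : ℕ, 2 ≤ n → ∀ (V : Type) [Fintype V] (H : SimpleGraph V) (Δ : ℕ),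
      Fintype.card V ≤ n → H ≠ ⊥ → 1 ≤ Δ → (∀ x, (H.neighborSet x).ncard ≤ Δ) →
      pTilde n H ≤ C * (Δ : ℝ) * pE n H ∧
      pc n H ≤ C * (Δ : ℝ) * pE n H * Real.log ((H.edgeSet.ncard : ℝ) + 3) ∧
      pc n H ≤ C * (Δ : ℝ) * pE n H * Real.log n := by
  obtain ⟨C, hC, h⟩ := thresholds_deg
  refine ⟨4 * C, by positivity, ?_⟩
  intro n hn V _ H Δ hV hH hΔ1 hΔ
  obtain ⟨h1, h2⟩ := h n hn V H Δ hV hH hΔ1 hΔ
  have hE0 := pE_pos hn hV hH
  have hΔR : (1 : ℝ) ≤ (Δ : ℝ) := by exact_mod_cast hΔ1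
  have hX : 0 ≤ C * (Δ : ℝ) * pE n H := by positivity
  have hl1 := one_le_log_edges H
  have hl4 := log_edges_le hn H hV
  refine ⟨?_, ?_, ?_⟩
  · calc pTilde n H ≤ C * (Δ : ℝ) * pE n H := h1
      _ ≤ 4 * C * (Δ : ℝ) * pE n H := by nlinarith
  · calc pc n H ≤ C * (Δ : ℝ) * pE n H * Real.log ((H.edgeSet.ncard : ℝ) + 3) := h2
      _ ≤ 4 * C * (Δ : ℝ) * pE n H * Real.log ((H.edgeSet.ncard : ℝ) + 3) := by
          have : 0 ≤ C * (Δ : ℝ) * pE n H * Real.log ((H.edgeSet.ncard : ℝ) + 3) := by positivity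
          nlinarith
  · calc pc n H ≤ C * (Δ : ℝ) * pE n H * Real.log ((H.edgeSet.ncard : ℝ) + 3) := h2
      _ ≤ C * (Δ : ℝ) * pE n H * (4 * Real.log n) := mul_le_mul_of_nonneg_left hl4 hX
      _ = 4 * C * (Δ : ℝ) * pE n H * Real.log n := by ring

end Vale.Agent.Lib.P064L
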